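import Vale.Agent.P207.N4.H709.ClkR
import Vale.Agent.P207.H147.DetD
import Mathlib.Analysis.InnerProductSpace.Trace

/-!
# P207: pointwise bunching from the Ricci curvature and the volume growth

`bunM_of_ric` : if `Ric ≥ -ρ` and the volume of the unstable leaves grows like `exp (h t)` with
`(5 m - 1) ρ < 5 h²`, then the unstable derivative is pointwise bunched. No bound of the sectional
curvature is used.
-/

open Module Set Filter Topology Metric MeasureTheory
open scoped ContDiff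

noncomputable section

namespace Vale.Agent.P207.N4.H376.Ric

/-- completing the square -/
theorem form_le {m : ℕ} (u : Fin m → Fin m → ℝ) (v w : Fin m → ℝ) {A : ℝ} (hA : 0 < A)
    (hv : ∑ i, v i * v i = 1) (hw : ∑ i, w i * w i = 1) :
    (∑ i, ∑ j, u i j * (v i * v j)) - 2 * (∑ i, ∑ j, u i j * (w i * w j)) + 5 * ∑ i, u i i ≤
      A * (∑ i, ∑ j, u i j ^ 2) + 5 * (5 * m - 1) / (4 * A) := by
  have h1 : ∀ i j : Fin m, u i j * (v i * v j) - 2 * (u i j * (w i * w j)) +
      5 * (if i = j then u i j else 0) ≤ A * u i j ^ 2 +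
      ((v i * v i) * (v j * v j) + 4 * ((w i * w i) * (w j * w j)) -
        4 * ((v i * w i) * (v j * w j)) +
        (if i = j then 25 + 10 * (v i * v j) - 20 * (w i * w j) else 0)) / (4 * A) := by
    intro i j
    have h2 : ∀ a b : ℝ, a * b ≤ A * a ^ 2 + b ^ 2 / (4 * A) := by
      intro a b
      have h3 : A * a ^ 2 + b ^ 2 / (4 * A) - a * b = (2 * A * a - b) ^ 2 / (4 * A) := by
        field_simp
        ring
      have h4 : 0 ≤ (2 * A * a - b) ^ 2 / (4 * A) := by positivity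
      linarith
    by_cases hij : i = j
    · subst hij
      simp only [if_true]
      have h3 := h2 (u i i) (v i * v i - 2 * (w i * w i) + 5)
      have h4 : (v i * v i - 2 * (w i * w i) + 5) ^ 2 = (v i * v i) * (v i * v i) +
          4 * ((w i * w i) * (w i * w i)) - 4 * ((v i * w i) * (v i * w i)) +
          (25 + 10 * (v i * v i) - 20 * (w i * w i)) := by ring
      rw [h4] at h3
      calc _ = u i i * (v i * v i - 2 * (w i * w i) + 5) := by ring
        _ ≤ _ := h3
    · simp only [hij, if_false]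
      have h3 := h2 (u i j) (v i * v j - 2 * (w i * w j))
      have h4 : (v i * v j - 2 * (w i * w j)) ^ 2 = (v i * v i) * (v j * v j) +
          4 * ((w i * w i) * (w j * w j)) - 4 * ((v i * w i) * (v j * w j)) + 0 := by ring
      rw [h4] at h3
      calc _ = u i j * (v i * v j - 2 * (w i * w j)) := by ring
        _ ≤ _ := h3
  have h2 := Finset.sum_le_sum fun i (_ : i ∈ Finset.univ) =>
    Finset.sum_le_sum fun j (_ : j ∈ Finset.univ) => h1 i j
  have e1 : ∀ f g : Fin m → ℝ, ∑ i, ∑ j, f i * g j = (∑ i, f i) * ∑ j, g j := fun f g => by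
    rw [Finset.sum_mul_sum]
  have h3 : ∑ i, ∑ j, (u i j * (v i * v j) - 2 * (u i j * (w i * w j)) +
      5 * (if i = j then u i j else 0)) =
      (∑ i, ∑ j, u i j * (v i * v j)) - 2 * (∑ i, ∑ j, u i j * (w i * w j)) + 5 * ∑ i, u i i := by
    simp only [Finset.sum_add_distrib, Finset.sum_sub_distrib, ← Finset.mul_sum]
    congr 2
    refine Finset.sum_congr rfl fun i _ => ?_
    simp
  have h4 : ∑ i, ∑ j, (A * u i j ^ 2 +
      ((v i * v i) * (v j * v j) + 4 * ((w i * w i) * (w j * w j)) -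
        4 * ((v i * w i) * (v j * w j)) +
        (if i = j then 25 + 10 * (v i * v j) - 20 * (w i * w j) else 0)) / (4 * A)) =
      A * (∑ i, ∑ j, u i j ^ 2) + (25 * m - 5 - 4 * (∑ i, v i * w i) ^ 2) / (4 * A) := by
    have e2 : ∑ i, ∑ j, ((v i * v i) * (v j * v j) + 4 * ((w i * w i) * (w j * w j)) -
        4 * ((v i * w i) * (v j * w j)) +
        (if i = j then 25 + 10 * (v i * v j) - 20 * (w i * w j) else 0)) =
        25 * m - 5 - 4 * (∑ i, v i * w i) ^ 2 := by
      have e3 : ∀ i : Fin m, ∑ j, (if i = j then 25 + 10 * (v i * v j) - 20 * (w i * w j) else 0) =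
          25 + 10 * (v i * v i) - 20 * (w i * w i) := fun i => by simp
      simp only [Finset.sum_add_distrib, Finset.sum_sub_distrib]
      have e4 : ∑ i, ∑ j, 4 * ((w i * w i) * (w j * w j)) =
          4 * ((∑ i, w i * w i) * ∑ j, w j * w j) := by
        rw [← e1]
        simp only [Finset.mul_sum]
      have e5 : ∑ i, ∑ j, 4 * ((v i * w i) * (v j * w j)) =
          4 * ((∑ i, v i * w i) * ∑ j, v j * w j) := by
        rw [← e1]
        simp only [Finset.mul_sum]
      have e6 : ∑ i : Fin m, ∑ j, (if i = j then 25 + 10 * (v i * v j) - 20 * (w i * w j) else 0) =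
          25 * m + 10 * (∑ i, v i * v i) - 20 * ∑ i, w i * w i := by
        rw [Finset.sum_congr rfl fun i _ => e3 i]
        simp only [Finset.sum_add_distrib, Finset.sum_sub_distrib, ← Finset.mul_sum,
          Finset.sum_const, Finset.card_univ, Fintype.card_fin, nsmul_eq_mul]
        ring
      rw [e4, e5, e6, e1, hv, hw]
      ring
    simp only [Finset.sum_add_distrib, ← Finset.sum_div, ← Finset.mul_sum]
    simp only [Finset.sum_add_distrib] at e2
    rw [← e2]
  rw [h3, h4] at h2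
  refine h2.trans ?_
  have h5 : (25 * m - 5 - 4 * (∑ i, v i * w i) ^ 2) / (4 * A) ≤ 5 * (5 * m - 1) / (4 * A) := by
    refine div_le_div_of_nonneg_right ?_ (by positivity)
    nlinarith [sq_nonneg (∑ i, v i * w i)]
  linarith

section vec

variable {E : Type*} [NormedAddCommGroup E] [InnerProductSpace ℝ E] {m : ℕ}

/-- completing the square, for a symmetric operator -/
theorem op_le (b : OrthonormalBasis (Fin m) ℝ E) {U : E →L[ℝ] E}
    (hU : ∀ v w, inner ℝ (U v) w = inner ℝ v (U w)) {v w : E} (hv : ‖v‖ = 1) (hw : ‖w‖ = 1)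
    {A : ℝ} (hA : 0 < A) :
    inner ℝ (U v) v - 2 * inner ℝ (U w) w + 5 * ∑ i, inner ℝ (b i) (U (b i)) ≤
      A * (∑ i, inner ℝ (b i) (U (U (b i)))) + 5 * (5 * m - 1) / (4 * A) := by
  have h1 : ∀ y : E, inner ℝ (U y) y = ∑ i, ∑ j, inner ℝ (b i) (U (b j)) *
      (inner ℝ (b i) y * inner ℝ (b j) y) := by
    intro y
    rw [Finset.sum_comm, ← b.sum_inner_mul_inner (U y) y]
    refine Finset.sum_congr rfl fun j _ => ?_
    rw [hU, ← b.sum_inner_mul_inner y (U (b j)), Finset.sum_mul]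
    refine Finset.sum_congr rfl fun i _ => ?_
    rw [real_inner_comm (b i) y]
    ring
  have h2 : ∀ y : E, ‖y‖ = 1 → ∑ i, inner ℝ (b i) y * inner ℝ (b i) y = 1 := by
    intro y hy
    have h3 := b.sum_inner_mul_inner y y
    rw [real_inner_self_eq_norm_sq, hy, one_pow] at h3
    rw [← h3]
    refine Finset.sum_congr rfl fun i _ => ?_
    rw [real_inner_comm (b i) y]
  have h3 : ∑ i, inner ℝ (b i) (U (U (b i))) = ∑ i, ∑ j, inner ℝ (b i) (U (b j)) ^ 2 := by
    rw [Finset.sum_comm]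
    refine Finset.sum_congr rfl fun j _ => ?_
    rw [← hU, ← b.sum_inner_mul_inner (U (b j)) (U (b j))]
    refine Finset.sum_congr rfl fun i _ => ?_
    rw [real_inner_comm (b i) (U (b j)), sq]
  rw [h1 v, h1 w, h3]
  exact form_le (fun i j => inner ℝ (b i) (U (b j))) (fun i => inner ℝ (b i) v)
    (fun i => inner ℝ (b i) w) hA (h2 v hv) (h2 w hw)

end vec

open Vale.Agent.P207.N3 Vale.Agent.P207.N4.H709

variable [Dim]

/-- the trace -/
def tq (T : E2 →L[ℝ] E2) : ℝ :=
  ∑ i, inner ℝ (EuclideanSpace.basisFun (Fin Dim.m) ℝ i)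
    (T (EuclideanSpace.basisFun (Fin Dim.m) ℝ i))

theorem tr_eq (T : E2 →L[ℝ] E2) : P207.H147.DetD.tr T = tq T :=
  LinearMap.trace_eq_sum_inner (T : E2 →ₗ[ℝ] E2) (EuclideanSpace.basisFun (Fin Dim.m) ℝ)

theorem hasDerivAt_tq {T : ℝ → E2 →L[ℝ] E2} {T' : E2 →L[ℝ] E2} {s : ℝ}
    (h : HasDerivAt T T' s) : HasDerivAt (fun r => tq (T r)) (tq T') s := by
  unfold tq
  refine HasDerivAt.fun_sum fun i _ => ?_
  have h1 : HasDerivAt (fun r => T r (EuclideanSpace.basisFun (Fin Dim.m) ℝ i))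
      (T' (EuclideanSpace.basisFun (Fin Dim.m) ℝ i)) s :=
    (ContinuousLinearMap.apply ℝ E2 (EuclideanSpace.basisFun (Fin Dim.m) ℝ i)).hasFDerivAt
      |>.comp_hasDerivAt s h
  exact (innerSL ℝ (EuclideanSpace.basisFun (Fin Dim.m) ℝ i)).hasFDerivAt.comp_hasDerivAt s h1

theorem tq_le (T : E2 →L[ℝ] E2) : |tq T| ≤ Dim.m * ‖T‖ := by
  unfold tq
  refine (Finset.abs_sum_le_sum_abs _ _).trans ?_
  calc _ ≤ ∑ _i : Fin Dim.m, ‖T‖ := Finset.sum_le_sum fun i _ => by
        refine (abs_real_inner_le_norm _ _).trans ?_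
        have h1 : ‖EuclideanSpace.basisFun (Fin Dim.m) ℝ i‖ = 1 :=
          (EuclideanSpace.basisFun (Fin Dim.m) ℝ).norm_eq_one i
        rw [h1, one_mul]
        refine (T.le_opNorm _).trans ?_
        rw [h1, mul_one]
    _ = _ := by simp

theorem tq_sub (S T : E2 →L[ℝ] E2) : tq (S - T) = tq S - tq T := by
  unfold tq
  rw [← Finset.sum_sub_distrib]
  refine Finset.sum_congr rfl fun i _ => ?_
  rw [ContinuousLinearMap.sub_apply, inner_sub_right]

theorem tq_neg (S : E2 →L[ℝ] E2) : tq (-S) = -tq S := by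
  unfold tq
  rw [← Finset.sum_neg_distrib]
  refine Finset.sum_congr rfl fun i _ => ?_
  rw [ContinuousLinearMap.neg_apply, inner_neg_right]

variable {Γ X B : Type} [Group Γ] [MetricSpace X] [ProperSpace X] [MulAction Γ X]
  [IsIsometricSMul Γ X] [TopologicalSpace B] [CompactSpace B] [T2Space B] [MulAction Γ B]
  [ContinuousConstSMul Γ B]

variable {L : Leaf Γ X B}

theorem norm_Dt_vec_pos (s : ℝ) (x : X) {v : E2} (hv : ‖v‖ = 1) : 0 < ‖H77.Dt L s x v‖ := by
  refine lt_of_lt_of_le ?_ (Fl_le_Dt s x v)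
  rw [hv, mul_one]
  exact Real.exp_pos _

/-- the logarithmic derivative of the norm of an unstable Jacobi field -/
theorem hasDerivAt_log (M : Metr L) (x : X) {v : E2} (hv : ‖v‖ = 1) (s : ℝ) :
    HasDerivAt (fun s => Real.log ‖H77.Dt L s x v‖)
      (inner ℝ (M.U (L.φ s x) (‖H77.Dt L s x v‖⁻¹ • H77.Dt L s x v))
        (‖H77.Dt L s x v‖⁻¹ • H77.Dt L s x v)) s := by
  have hd : HasDerivAt (fun s => H77.Dt L s x v) (M.U (L.φ s x) (H77.Dt L s x v)) s :=
    (ContinuousLinearMap.apply ℝ E2 v).hasFDerivAt.comp_hasDerivAt s (H77.hasDerivAt_Dt M x s)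
  have h0 := norm_Dt_vec_pos (L := L) s x hv
  have h1 := (hd.norm_sq.log (by positivity)).const_mul (1 / 2)
  have h2 : (fun s => Real.log ‖H77.Dt L s x v‖) =
      fun s => 1 / 2 * Real.log (‖H77.Dt L s x v‖ ^ 2) := by
    funext r
    rw [Real.log_pow]
    push_cast
    ring
  rw [h2]
  refine h1.congr_deriv ?_
  rw [map_smul, inner_smul_left, inner_smul_right, real_inner_comm]
  simp only [conj_trivial]
  field_simp

variable [MeasurableSpace B] [BorelSpace B]

/-- **pointwise bunching from the Ricci curvature and the volume growth** -/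
theorem bunM_of_ric (M : Metr L) (A : Area L) {ρ : ℝ}
    (hρ : ∀ x, ∑ i, -inner ℝ (M.K x (EuclideanSpace.single i 1)) (EuclideanSpace.single i 1) ≤ ρ)
    (hQ : (5 * (Dim.m : ℝ) - 1) * ρ < 5 * A.h ^ 2) : BunM L := by
  obtain ⟨D₁, D₂, hD₁, hD₂, hdet⟩ := det_bounds A
  obtain ⟨K, hK, hUK⟩ := exists_U_norm M
  have hh := A.h_pos
  have hm : (2 : ℝ) ≤ Dim.m := by exact_mod_cast Dim.two_le
  -- a positive bound
  obtain ⟨r, hr0, hρr, hQr⟩ : ∃ r : ℝ, 0 < r ∧ ρ ≤ r ∧ (5 * (Dim.m : ℝ) - 1) * r < 5 * A.h ^ 2 := by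
    refine ⟨max ρ (A.h ^ 2 / (5 * Dim.m)), lt_max_of_lt_right (by positivity), le_max_left _ _, ?_⟩
    rcases le_total ρ (A.h ^ 2 / (5 * Dim.m)) with h | h
    · rw [max_eq_right h]
      have h1 : (5 * (Dim.m : ℝ) - 1) * (A.h ^ 2 / (5 * Dim.m)) ≤
          (5 * (Dim.m : ℝ)) * (A.h ^ 2 / (5 * Dim.m)) :=
        mul_le_mul_of_nonneg_right (by linarith) (by positivity)
      have h2 : (5 * (Dim.m : ℝ)) * (A.h ^ 2 / (5 * Dim.m)) = A.h ^ 2 := by
        field_simp
      nlinarith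
    · rwa [max_eq_left h]
  set A₀ : ℝ := 5 * A.h / (2 * r) with hA₀
  have hA0 : 0 < A₀ := by positivity
  set c : ℝ := A₀ * r + 5 * (5 * Dim.m - 1) / (4 * A₀) with hc
  have hc5 : c < 5 * A.h := by
    have h1 : A₀ * r = 5 * A.h / 2 := by rw [hA₀]; field_simp
    have h2 : 5 * (5 * (Dim.m : ℝ) - 1) / (4 * A₀) = (5 * Dim.m - 1) * r / (2 * A.h) := by
      rw [hA₀]; field_simp; ring
    have h3 : (5 * (Dim.m : ℝ) - 1) * r / (2 * A.h) < 5 * A.h / 2 := by
      rw [div_lt_iff₀ (by positivity)]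
      nlinarith
    rw [hc, h1, h2]
    linarith
  have hKx : ∀ x, -tq (M.K x) ≤ r := by
    intro x
    refine le_trans (le_of_eq ?_) ((hρ x).trans hρr)
    unfold tq
    rw [← Finset.sum_neg_distrib]
    refine Finset.sum_congr rfl fun i _ => ?_
    rw [EuclideanSpace.basisFun_apply, real_inner_comm]
  have hdet0 : ∀ s x, (H77.Dt L s x).det ≠ 0 := fun s x h => by
    have h1 := (hdet s x).1
    rw [h, abs_zero] at h1
    have : 0 < D₁ * Real.exp (A.h * s) := by positivity
    linarith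
  -- the function
  have key : ∀ x (v w : E2), ‖v‖ = 1 → ‖w‖ = 1 → ∀ S, 0 ≤ S →
      Real.log ‖H77.Dt L S x v‖ - 2 * Real.log ‖H77.Dt L S x w‖ +
        5 * Real.log (H77.Dt L S x).det + A₀ * tq (M.U (L.φ S x)) - c * S ≤
        A₀ * tq (M.U x) := by
    intro x v w hv hw S hS
    have hder : ∀ s, HasDerivAt (fun s => Real.log ‖H77.Dt L s x v‖ -
        2 * Real.log ‖H77.Dt L s x w‖ + 5 * Real.log (H77.Dt L s x).det +
        A₀ * tq (M.U (L.φ s x)) - c * s)
        (inner ℝ (M.U (L.φ s x) (‖H77.Dt L s x v‖⁻¹ • H77.Dt L s x v))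
          (‖H77.Dt L s x v‖⁻¹ • H77.Dt L s x v) -
        2 * inner ℝ (M.U (L.φ s x) (‖H77.Dt L s x w‖⁻¹ • H77.Dt L s x w))
          (‖H77.Dt L s x w‖⁻¹ • H77.Dt L s x w) + 5 * tq (M.U (L.φ s x)) +
        A₀ * tq (-(M.U (L.φ s x) ∘L M.U (L.φ s x)) - M.K (L.φ s x)) - c * 1) s := by
      intro s
      have h1 := hasDerivAt_log M x hv s
      have h2 := (hasDerivAt_log M x hw s).const_mul 2
      have h3 : HasDerivAt (fun s => 5 * Real.log (H77.Dt L s x).det)
          (5 * tq (M.U (L.φ s x))) s := by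
        have h4 := P207.H147.DetD.hasDerivAt_det_left (H77.hasDerivAt_Dt M x s)
        have h5 := (h4.log (hdet0 s x)).const_mul 5
        refine h5.congr_deriv ?_
        rw [mul_div_assoc, div_self (hdet0 s x), mul_one, tr_eq]
      have h4 := (hasDerivAt_tq (M.riccati x s)).const_mul A₀
      exact (((h1.sub h2).add h3).add h4).sub ((hasDerivAt_id s).const_mul c)
    have hanti := antitone_of_deriv_nonpos (f := fun s => Real.log ‖H77.Dt L s x v‖ -
        2 * Real.log ‖H77.Dt L s x w‖ + 5 * Real.log (H77.Dt L s x).det +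
        A₀ * tq (M.U (L.φ s x)) - c * s) (fun s => (hder s).differentiableAt) fun s => by
      rw [(hder s).deriv]
      have hu : ∀ y : E2, 0 < ‖y‖ → ‖‖y‖⁻¹ • y‖ = 1 := fun y hy => by
        rw [norm_smul, norm_inv, norm_norm, inv_mul_cancel₀ hy.ne']
      have h1 := op_le (EuclideanSpace.basisFun (Fin Dim.m) ℝ) (M.U_symm (L.φ s x))
        (hu _ (norm_Dt_vec_pos (L := L) s x hv)) (hu _ (norm_Dt_vec_pos (L := L) s x hw)) hA0
      have h2 : tq (-(M.U (L.φ s x) ∘L M.U (L.φ s x)) - M.K (L.φ s x)) =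
          -(tq (M.U (L.φ s x) ∘L M.U (L.φ s x))) - tq (M.K (L.φ s x)) := by
        rw [tq_sub, tq_neg]
      have h3 : tq (M.U (L.φ s x) ∘L M.U (L.φ s x)) =
          ∑ i, inner ℝ (EuclideanSpace.basisFun (Fin Dim.m) ℝ i) (M.U (L.φ s x)
            (M.U (L.φ s x) (EuclideanSpace.basisFun (Fin Dim.m) ℝ i))) := rfl
      have h4 : tq (M.U (L.φ s x)) = ∑ i, inner ℝ (EuclideanSpace.basisFun (Fin Dim.m) ℝ i)
          (M.U (L.φ s x) (EuclideanSpace.basisFun (Fin Dim.m) ℝ i)) := rfl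
      rw [← h3, ← h4] at h1
      have h5 := mul_le_mul_of_nonneg_left (hKx (L.φ s x)) hA0.le
      rw [h2, hc]
      linarith
    have h1 := hanti hS
    simp only [H77.Dt_zero, L.φ_zero, ContinuousLinearMap.id_apply, hv, hw, Real.log_one] at h1
    have h2 : (ContinuousLinearMap.id ℝ E2).det = 1 := by
      rw [ContinuousLinearMap.det, ContinuousLinearMap.coe_id, LinearMap.det_id]
    rw [h2, Real.log_one] at h1
    linarith
  obtain ⟨S, hS, hS'⟩ := exists_lin (2 * (A₀ * (Dim.m * K)) - 5 * Real.log D₁ + 1)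
    (show 0 < 5 * A.h - c by linarith)
  refine ⟨S, hS, fun x v w hv hw => ?_⟩
  have h1 := key x v w hv hw S hS.le
  have h2 := hS' S le_rfl
  have h3 : Real.log D₁ + A.h * S ≤ Real.log (H77.Dt L S x).det := by
    have h4 := Real.log_le_log (by positivity) (hdet S x).1
    rw [Real.log_mul hD₁.ne' (Real.exp_pos _).ne', Real.log_exp, Real.log_abs] at h4
    exact h4
  have hb : ∀ y, |tq (M.U y)| ≤ Dim.m * K := fun y =>
    (tq_le _).trans (mul_le_mul_of_nonneg_left (hUK y) (by positivity))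
  have h4 : A₀ * tq (M.U x) ≤ A₀ * (Dim.m * K) :=
    mul_le_mul_of_nonneg_left ((le_abs_self _).trans (hb x)) hA0.le
  have h5 : -(A₀ * (Dim.m * K)) ≤ A₀ * tq (M.U (L.φ S x)) := by
    rw [← mul_neg]
    exact mul_le_mul_of_nonneg_left (neg_le.1 ((neg_le_abs _).trans (hb _))) hA0.le
  have h6 : Real.log ‖H77.Dt L S x v‖ < 2 * Real.log ‖H77.Dt L S x w‖ := by linarith
  have h7 := Real.exp_lt_exp.2 h6
  rw [Real.exp_log (norm_Dt_vec_pos S x hv), two_mul, Real.exp_add,
    Real.exp_log (norm_Dt_vec_pos S x hw), ← sq] at h7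
  exact h7

end Vale.Agent.P207.N4.H376.Ric
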